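import Vale.Agent.P246.T.CWB

/-! # P246: the number of cells of a finite CW complex -/

namespace Vale.Agent.P246.H201

open Vale.Agent.P246 Vale.Agent.P246.T Topology Metric Set

/-- sets which are built by attaching `c n` cells of dimension `n`, for all `n` -/
inductive BuiltN {X : Type} [TopologicalSpace X] : Set X → (ℕ → ℕ) → Prop
  | base : BuiltN ∅ (fun _ => 0)
  | cell {A B : Set X} {c : ℕ → ℕ} (n : ℕ) (Φ : C(Dk n, X)) : BuiltN A c → Attach n A B Φ →
      BuiltN B (Function.update c n (c n + 1))

theorem BuiltN.bdd {X : Type} [TopologicalSpace X] {B : Set X} {c : ℕ → ℕ} (h : BuiltN B c) :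
    ∃ N, ∀ i, N ≤ i → c i = 0 := by
  induction h with
  | base => exact ⟨0, fun _ _ => rfl⟩
  | cell n Φ _ _ ih =>
    obtain ⟨N, hN⟩ := ih
    refine ⟨max N (n + 1), fun i hi => ?_⟩
    rw [Function.update_of_ne (by have := le_max_right N (n + 1); omega)]
    exact hN i ((le_max_left _ _).trans hi)

section

variable {X : Type} [TopologicalSpace X] [CWComplex (univ : Set X)]

theorem builtN : ∀ (k : ℕ) (T : Finset (CWB.Cells X)), T.card = k →
    (∀ c ∈ T, ∀ c' : CWB.Cells X, c'.1 < c.1 → c' ∈ T) →
    BuiltN (CWB.U T) (fun n => (T.filter (fun c => c.1 = n)).card) := by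
  classical
  intro k
  induction k with
  | zero =>
    intro T hT _
    rw [Finset.card_eq_zero] at hT
    subst hT
    have : CWB.U (∅ : Finset (CWB.Cells X)) = ∅ := by simp [CWB.U]
    rw [this]
    simp only [Finset.filter_empty, Finset.card_empty]
    exact BuiltN.base
  | succ k ih =>
    intro T hT hdown
    have hne : T.Nonempty := by
      rw [← Finset.card_pos]; omega
    obtain ⟨c, hc, hmax⟩ := Finset.exists_max_image T (fun c => c.1) hne
    have h1 : ∀ c' ∈ T.erase c, ∀ c'' : CWB.Cells X, c''.1 < c'.1 → c'' ∈ T.erase c := by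
      intro c' hc' c'' h
      have h2 := hmax c' (Finset.mem_of_mem_erase hc')
      refine Finset.mem_erase.2 ⟨?_, hdown c' (Finset.mem_of_mem_erase hc') c'' h⟩
      rintro rfl
      omega
    have h2 := ih (T.erase c) (by rw [Finset.card_erase_of_mem hc, hT]; rfl) h1
    have hcount : (fun n => (T.filter (fun c => c.1 = n)).card) =
        Function.update (fun n => ((T.erase c).filter (fun c => c.1 = n)).card) c.1
          (((T.erase c).filter (fun c' => c'.1 = c.1)).card + 1) := by
      funext n
      have e : T.filter (fun c => c.1 = n) =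
          (insert c (T.erase c)).filter (fun c => c.1 = n) := by
        rw [Finset.insert_erase hc]
      rw [e, Finset.filter_insert]
      by_cases hn : n = c.1
      · subst hn
        rw [Function.update_self, if_pos rfl, Finset.card_insert_of_notMem]
        intro h
        exact Finset.notMem_erase c T (Finset.mem_filter.1 h).1
      · rw [Function.update_of_ne hn, if_neg (fun h => hn h.symm)]
    rw [hcount]
    refine BuiltN.cell c.1 (CWB.chi c) h2 ⟨?_, ?_, ?_, ?_⟩
    · intro x hx
      obtain ⟨c', hc', h'⟩ := CWB.frontier c x hx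
      refine mem_iUnion₂.2 ⟨c', Finset.mem_erase.2 ⟨?_, hdown c hc c' hc'⟩, h'⟩
      rintro rfl
      exact lt_irrefl _ hc'
    · intro x hx hcon
      obtain ⟨c', hc', h'⟩ := mem_iUnion₂.1 hcon
      obtain ⟨c'', h3, h4⟩ := CWB.closed_open c'.1 c' rfl _ h'
      have h5 : c = c'' := CWB.disj (c := c) ⟨x, mem_ball_zero_iff.2 hx, rfl⟩ h3
      have h6 := hmax c' (Finset.mem_of_mem_erase hc')
      rcases h4 with rfl | h4
      · exact (Finset.mem_erase.1 hc').1 h5.symm
      · rw [← h5] at h4
        omega
    · intro x y hx hy hxy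
      have h3 := (RelCWComplex.map c.1 c.2).injOn
        (by rw [RelCWComplex.source_eq]; exact mem_ball_zero_iff.2 hx)
        (by rw [RelCWComplex.source_eq]; exact mem_ball_zero_iff.2 hy) hxy
      exact Subtype.ext h3
    · rw [CWB.range_chi]
      ext y
      simp only [CWB.U, mem_iUnion, mem_union, Finset.mem_erase, exists_prop]
      constructor
      · rintro ⟨c', hc', hy⟩
        by_cases e : c' = c
        · rw [← e]; exact Or.inr hy
        · exact Or.inl ⟨c', ⟨e, hc'⟩, hy⟩
      · rintro (⟨c', hc', hy⟩ | hy)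
        · exact ⟨c', hc'.2, hy⟩
        · exact ⟨c, hc, hy⟩

/-- a finite CW complex is built from its cells -/
theorem builtN_univ [CWComplex.Finite (univ : Set X)] :
    BuiltN (univ : Set X) (fun n => Nat.card (RelCWComplex.cell (univ : Set X) n)) := by
  classical
  have hfin : Finite (CWB.Cells X) := RelCWComplex.finite_cells_of_finite
  have : Fintype (CWB.Cells X) := Fintype.ofFinite _
  have h := builtN (X := X) _ Finset.univ rfl fun _ _ _ _ => Finset.mem_univ _
  have e : CWB.U (Finset.univ : Finset (CWB.Cells X)) = univ := by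
    ext y
    obtain ⟨c, hc⟩ := CWB.exists_cell y
    exact ⟨fun _ => trivial, fun _ => mem_iUnion₂.2 ⟨c, Finset.mem_univ _, hc⟩⟩
  rw [e] at h
  have e2 : (fun n => ((Finset.univ : Finset (CWB.Cells X)).filter (fun c => c.1 = n)).card) =
      fun n => Nat.card (RelCWComplex.cell (univ : Set X) n) := by
    funext n
    rw [← Fintype.card_subtype, ← Nat.card_eq_fintype_card]
    exact Nat.card_congr (Equiv.sigmaSubtype n)
  rwa [e2] at h

end

end Vale.Agent.P246.H201
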