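import Vale.Agent.P246.T.Asm
import Vale.Agent.P246.T.A1
import Vale.Agent.P246.R2.H429.Defs2
import Vale.Agent.P246.R2.H201.ModelN

/-! # P246: the topological form, with the Euler characteristic -/

set_option linter.all false

namespace Vale.Agent.P246.H201

open Vale.Agent.P246 Vale.Agent.P246.T Vale.Agent.P246.H429 Topology Metric Set CategoryTheory

/-- `n` is the alternating sum of `c` -/
def EulSum (c : ℕ → ℕ) (n : ℤ) : Prop :=
  ∃ N : ℕ, (∀ i, N ≤ i → c i = 0) ∧ n = ∑ i ∈ Finset.range N, (-1 : ℤ) ^ i * c i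

/-- BLOCK A1 with the number of generators -/
theorem a1N (hfree : ∀ {G X E : Type} [Group G] [TopologicalSpace X] [TopologicalSpace E]
      [MulAction G E] [ContinuousConstSMul G E] {p : C(E, X)} (_ : IsQuotientCoveringMap p G)
      (n : ℕ), Module.Free (ZG G) (SC G n E))
    (haug : ∀ {E : Type} [TopologicalSpace E] [PathConnectedSpace E] (c : Ch 0 E),
      (c.sum fun _ a => a) = 0 ↔ ∃ b : Ch 1 E, bd 0 b = c)
    (hone : ∀ {E : Type} [TopologicalSpace E] [SimplyConnectedSpace E] (c : Ch 1 E),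
      bd 0 c = 0 → ∃ b : Ch 2 E, bd 1 b = c)
    (G X E : Type) [Group G] [TopologicalSpace X] [TopologicalSpace E]
    [SimplyConnectedSpace E] [MulAction G E] [ContinuousConstSMul G E] (p : C(E, X))
    (hp : IsQuotientCoveringMap p G)
    (hhigh : ∀ i, 2 ≤ i → ∀ c : Ch (i + 1) E, bd i c = 0 → ∃ b : Ch (i + 2) E, bd (i + 1) b = c)
    (h3 : H3G G E) (P : ∀ n, Submodule (ZG G) (SC G n E))
    (hP : IsFinModel (fun n => SC G n E) (fun n => SC.d G n E) (fun _ => ⊤) P) (c : ℕ → ℕ)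
    (hc : ∀ k, Nonempty (P k ≃ₗ[ZG G] (Fin (c k) → ZG G))) :
    ∃ C : Cx (ZG G), IsD2Complex C ∧ (∀ n : ℤ, EulSum c n → HasEuler C n) ∧
      ∀ Pr : FinPresentation G, C.Equiv (foxComplex Pr) →
        ∃ (ψ0 : ZG G →ₗ[ZG G] SC G 0 E) (ψ1 : (Fin Pr.gens → ZG G) →ₗ[ZG G] SC G 1 E)
          (ψ2 : (Fin Pr.rels → ZG G) →ₗ[ZG G] SC G 2 E), FoxQI Pr univ ψ0 ψ1 ψ2 := by
  have hdat := A1x.data haug hone (fun n => hfree hp n) hhigh h3 hP
  refine ⟨A1x.CC (S := fun n => SC G n E) (d := fun n => SC.d G n E) A1x.d_d hP.toIsModel,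
    hdat.isD2, ?_, ?_⟩
  · rintro n ⟨N, hN, hn⟩
    exact ⟨c, N, hc, hN, hn⟩
  · rintro Pr ⟨e⟩
    exact A1x.qi hP.toIsModel Pr e

theorem eulSum_cellChi (X : Type) [TopologicalSpace X] [T2Space X]
    [CWComplex (univ : Set X)] {c : ℕ → ℕ}
    (hc : c = fun n => Nat.card (RelCWComplex.cell (univ : Set X) n))
    (hb : ∃ N, ∀ i, N ≤ i → c i = 0) : EulSum c (cellChi X) := by
  obtain ⟨N, hN⟩ := hb
  refine ⟨N, hN, ?_⟩
  subst hc
  rw [cellChi]
  refine finsum_eq_sum_of_support_subset _ fun i hi => ?_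
  rw [Finset.coe_range, Set.mem_Iio]
  by_contra hlt
  apply hi
  have := hN i (by omega)
  simp only at this
  change (-1 : ℤ) ^ i * ((Nat.card (RelCWComplex.cell (univ : Set X) i) : ℕ) : ℤ) = 0
  rw [this]
  simp

/-- assembly with the Euler characteristic -/
theorem asm (hAct : SpecAct) (hms : SpecMS) (hcl : SpecCL) (hfund : SpecFund)
    (hCWB : SpecCWB)
    (hfree : ∀ {G X E : Type} [Group G] [TopologicalSpace X] [TopologicalSpace E]
      [MulAction G E] [ContinuousConstSMul G E] {p : C(E, X)} (_ : IsQuotientCoveringMap p G)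
      (n : ℕ), Module.Free (ZG G) (SC G n E))
    (haug : ∀ {E : Type} [TopologicalSpace E] [PathConnectedSpace E] (c : Ch 0 E),
      (c.sum fun _ a => a) = 0 ↔ ∃ b : Ch 1 E, bd 0 b = c)
    (hone : ∀ {E : Type} [TopologicalSpace E] [SimplyConnectedSpace E] (c : Ch 1 E),
      bd 0 c = 0 → ∃ b : Ch 2 E, bd 1 b = c) (hA2 : SpecA2)
    (hWC : SpecWC) (hYD : SpecYD) (hYC : SpecYC) (hCY : SpecCY') (hYP : SpecYP) (hYH : SpecYH)
    (hEW : SpecEW) (hRV : SpecRV) (hRH : SpecRH) (hDN : SpecDown) (hCV : SpecConv)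
    (hWh : SpecWh) : SpecTopChi := by
  intro G _ e0 hG X _ _ _ _ _ x he hD hchi
  obtain ⟨hB, hcpt, hlpc⟩ := hCWB X
  have hpc : PathConnectedSpace X := PathConnectedSpace.of_locallyPathConnectedSpace
  obtain ⟨E, _, _, _, p, hsc, hp, hH, hH3⟩ := hAct G X x he hD
  have hBN := builtN_univ (X := X)
  obtain ⟨P, hP, hPc⟩ := model hms hcl hfund G X E p hp hBN
  obtain ⟨C, hC, hCe, hCq⟩ := a1N hfree haug hone G X E p hp hH hH3 P hP _ hPc
  obtain ⟨Pr, hPr⟩ := hG C hC (cellChi X) (hCe _ (eulSum_cellChi X rfl hBN.bdd)) hchi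
  obtain ⟨ψ0, ψ1, ψ2, hψ⟩ := hCq Pr hPr
  obtain ⟨e⟩ : Nonempty E := inferInstance
  have hα : ∀ i, Nonempty (Path e (Pr.x i • e)) := fun i => PathConnectedSpace.joined _ _
  let α : ∀ i, Path e (Pr.x i • e) := fun i => (hα i).some
  obtain ⟨W⟩ := hWC
  obtain ⟨c, hc⟩ := hA2 G E Pr ψ0 ψ1 ψ2 hψ e (α)
  have hc0 := (hc c fun j => ⟨0, by simp⟩).1
  have hrel : ∀ j, wval Pr.x (Pr.r j).toWord = 1 := by
    intro j
    have h1 : Pr.r j ∈ (FreeGroup.lift Pr.x).ker := by
      rw [Pr.ker_eq]; exact Subgroup.subset_normalClosure ⟨j, rfl⟩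
    have h2 : ∀ w : List (Fin Pr.gens × Bool), wval Pr.x w = FreeGroup.lift Pr.x (FreeGroup.mk w) := by
      intro w
      induction w with
      | nil => rw [wval]; exact (map_one (FreeGroup.lift Pr.x)).symm
      | cons l w ih =>
        rw [wval, ih, lval]
        simp only [FreeGroup.lift_mk, List.map_cons, List.prod_cons]
        cases l.2 <;> rfl
    rw [h2, FreeGroup.mk_toWord]
    exact h1
  have hδ : ∀ j, ∃ δ : C(Dk 2, E), BdryWord Pr.x α (Pr.r j).toWord δ ∧ ∃ t : Ch 3 E,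
      push δ 2 zeta2 + ksx 2 e + W.cor G E Pr.gens Pr.x e α (Pr.r j).toWord = c j + bd 2 t :=
    fun j => hYD W G E _ Pr.x e α _ (hrel j) (c j) (hc0 j)
  choose δ hδ1 hδ2 using hδ
  obtain ⟨y, hy, hye, hya, hyb⟩ := hYC G X E p hp Pr e α δ hδ1
  obtain ⟨hpW, hscW, ⟨hX⟩, f, hf, hfg, h, hfh, hhf⟩ := hEW G X E p hp Pr.gens Pr.rels
  have := hscW hsc
  have hbuilt := hCY G (X × WW Pr.gens Pr.rels) (EW G E Pr.gens Pr.rels) (pW G Pr.gens Pr.rels p)
    hpW Pr y hy
  have hscY := hYP G (X × WW Pr.gens Pr.rels) (EW G E Pr.gens Pr.rels) (pW G Pr.gens Pr.rels p)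
    hpW Pr y hy
  have hQ := hYH W G (X × WW Pr.gens Pr.rels) (EW G E Pr.gens Pr.rels) (pW G Pr.gens Pr.rels p)
    hpW Pr y hy
  have hQE := (hc (fun j => push f 2 (y.zface W j)) (fun j => by
    obtain ⟨t, ht⟩ := hδ2 j
    refine ⟨t, ?_⟩
    rw [← ht, PresCx.zface, map_add, map_add]
    congr 1
    · congr 1
      · rw [← push_comp]
        congr 1
        congr 1
        ext z
        rw [ContinuousMap.comp_apply, hf, hyb]
      · rw [ksx, push_single, ksx]
        congr 1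
        ext z
        simp [hf, hye]
    · refine W.nat G _ E f hfg _ _ _ _ _ _ ?_ ?_ _
      · rw [hf, hye]
      · intro i t
        rw [hf, hya])).2
  have hHZ : ∀ k, HZero univ (pW G Pr.gens Pr.rels p ⁻¹' y.Y) k := by
    refine hRV G E (EW G E Pr.gens Pr.rels) f hfg ⟨h, hfh, hhf⟩ Pr _ _ _ _ _ _ _ hQ hQE ?_ ?_ ?_
    · intro v
      rw [phi0, phi0, LinearMap.toSpanSingleton_apply, LinearMap.toSpanSingleton_apply,
        SC.un_smul, SC.un_smul, SC.un_mk, SC.un_mk, Finsupp.sum, Finsupp.sum, map_sum]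
      refine Finset.sum_congr rfl fun g _ => ?_
      rw [map_smul, ksx, ksx, push_single, push_single, push_single]
      congr 2
      ext z
      simp only [ContinuousMap.comp_apply, ContinuousMap.const_apply]
      change g • e = f (g • y.e)
      rw [hfg, hf, hye]
    · intro v
      rw [phi1, phi1, push_lmap f hfg]
      congr 3
      funext i
      rw [SC.un_mk, psx, psx, push_single]
      congr 2
      ext z
      simp only [ContinuousMap.comp_apply]
      change α i _ = f (y.a i _)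
      rw [hf, hya]
    · intro v
      rw [push_lmap f hfg]
      rfl
  have hL := hRH (EW G E Pr.gens Pr.rels) (pW G Pr.gens Pr.rels p ⁻¹' y.Y) hHZ
  have hL2 : ∀ n, Lft y.Y n := fun n => hCV _ _ n (hDN G _ _ (pW G Pr.gens Pr.rels p) hpW y.Y n (hL n))
  obtain ⟨hbY, hcw, hfin, hdim⟩ := hbuilt
  refine ⟨y.Y, inferInstance, inferInstance, hcw, hfin, hdim, ?_⟩
  exact hWh X (X × WW Pr.gens Pr.rels) y.Y hB hbY hL2 ⟨hX⟩

end Vale.Agent.P246.H201
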