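import Vale.Agent.P246.T.Top
import Vale.Agent.P246.R2.H201.TopChi
import Vale.Agent.P246.R2.H429.Defs5

/-! # P246, ROW CLS: homotopy classification, from the uniqueness of presentation complexes -/

set_option linter.all false

namespace Vale.Agent.P246.H201.CLS

open Vale.Agent.P246 Vale.Agent.P246.T Vale.Agent.P246.H429 Topology Metric Set CategoryTheory

/-- a D(2) complex in the stable range is homotopy equivalent to a presentation complex -/
theorem toPres (G : Type) [Group G] (e0 : ℤ) (Q : ℤ → FinPresentation G)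
    (hG : ∀ C : Cx (ZG G), IsD2Complex C → ∀ n : ℤ, HasEuler C n → e0 ≤ n →
      C.Equiv (foxComplex (Q n)))
    (X : Type) [TopologicalSpace X] [T2Space X] [CWComplex (Set.univ : Set X)]
    [CWComplex.Finite (Set.univ : Set X)] [ConnectedSpace X] (x : X)
    (he : Nonempty (FundamentalGroup X x ≃* G)) (hD : D2Condition X) (hchi : e0 ≤ cellChi X)
    (Pr : FinPresentation G) (hPrQ : Pr = Q (cellChi X)) :
    ∃ (E : Type) (_ : TopologicalSpace E) (_ : MulAction G E) (_ : ContinuousConstSMul G E)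
      (p : C(E, X)) (c : PresCx Pr (pW G Pr.gens Pr.rels p)),
      IsQuotientCoveringMap (pW G Pr.gens Pr.rels p) G ∧ c.Good ∧
      Nonempty (ContinuousMap.HomotopyEquiv X c.Y) := by
  have hCWB := CWB.main
  have hAct := AC.main
  have hA2 := A2.main
  have hWC := WC.main
  have hYD := YD.main fund
  have hYC := YC.main
  have hCY := CY.main
  have hYP := YP.main
  have hYH := YH.main MS.main CL.main fund
  have hEW := EWb.main
  have hRV := RV.main
  have hRH := relHur
  have hDN := DN.main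
  have hCV := CV.main
  have hWh := WH.main
  obtain ⟨hB, hcpt, hlpc⟩ := hCWB X
  have hpc : PathConnectedSpace X := PathConnectedSpace.of_locallyPathConnectedSpace
  obtain ⟨E, _, _, _, p, hsc, hp, hH, hH3⟩ := hAct G X x he hD
  have hBN := builtN_univ (X := X)
  obtain ⟨P, hP, hPc⟩ := model MS.main CL.main fund G X E p hp hBN
  obtain ⟨C, hC, hCe, hCq⟩ := a1N A1f.free A1h.aug_iff A1h.h_one G X E p hp hH hH3 P hP _ hPc
  have hPr : C.Equiv (foxComplex Pr) := by
    rw [hPrQ]
    exact hG C hC (cellChi X) (hCe _ (eulSum_cellChi X rfl hBN.bdd)) hchi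
  obtain ⟨ψ0, ψ1, ψ2, hψ⟩ := hCq Pr hPr
  obtain ⟨e⟩ : Nonempty E := inferInstance
  have hα : ∀ i, Nonempty (Path e (Pr.x i • e)) := fun i => PathConnectedSpace.joined _ _
  let α : ∀ i, Path e (Pr.x i • e) := fun i => (hα i).some
  obtain ⟨W⟩ := hWC
  obtain ⟨c, hc⟩ := hA2 G E Pr ψ0 ψ1 ψ2 hψ e (α)
  have hc0 := (hc c fun j => ⟨0, by simp⟩).1
  have hrel : ∀ j, wval Pr.x (Pr.r j).toWord = 1 := by
    intro j
    have h1 : Pr.r j ∈ (FreeGroup.lift Pr.x).ker := by
      rw [Pr.ker_eq]; exact Subgroup.subset_normalClosure ⟨j, rfl⟩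
    have h2 : ∀ w : List (Fin Pr.gens × Bool), wval Pr.x w = FreeGroup.lift Pr.x (FreeGroup.mk w) := by
      intro w
      induction w with
      | nil => rw [wval]; exact (map_one (FreeGroup.lift Pr.x)).symm
      | cons l w ih =>
        rw [wval, ih, lval]
        simp only [FreeGroup.lift_mk, List.map_cons, List.prod_cons]
        cases l.2 <;> rfl
    rw [h2, FreeGroup.mk_toWord]
    exact h1
  have hδ : ∀ j, ∃ δ : C(Dk 2, E), BdryWord Pr.x α (Pr.r j).toWord δ ∧ ∃ t : Ch 3 E,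
      push δ 2 zeta2 + ksx 2 e + W.cor G E Pr.gens Pr.x e α (Pr.r j).toWord = c j + bd 2 t :=
    fun j => hYD W G E _ Pr.x e α _ (hrel j) (c j) (hc0 j)
  choose δ hδ1 hδ2 using hδ
  obtain ⟨y, hy, hye, hya, hyb⟩ := hYC G X E p hp Pr e α δ hδ1
  obtain ⟨hpW, hscW, ⟨hX⟩, f, hf, hfg, h, hfh, hhf⟩ := hEW G X E p hp Pr.gens Pr.rels
  have := hscW hsc
  have hbuilt := hCY G (X × WW Pr.gens Pr.rels) (EW G E Pr.gens Pr.rels) (pW G Pr.gens Pr.rels p)
    hpW Pr y hy
  have hscY := hYP G (X × WW Pr.gens Pr.rels) (EW G E Pr.gens Pr.rels) (pW G Pr.gens Pr.rels p)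
    hpW Pr y hy
  have hQ := hYH W G (X × WW Pr.gens Pr.rels) (EW G E Pr.gens Pr.rels) (pW G Pr.gens Pr.rels p)
    hpW Pr y hy
  have hQE := (hc (fun j => push f 2 (y.zface W j)) (fun j => by
    obtain ⟨t, ht⟩ := hδ2 j
    refine ⟨t, ?_⟩
    rw [← ht, PresCx.zface, map_add, map_add]
    congr 1
    · congr 1
      · rw [← push_comp]
        congr 1
        congr 1
        ext z
        rw [ContinuousMap.comp_apply, hf, hyb]
      · rw [ksx, push_single, ksx]
        congr 1
        ext z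
        simp [hf, hye]
    · refine W.nat G _ E f hfg _ _ _ _ _ _ ?_ ?_ _
      · rw [hf, hye]
      · intro i t
        rw [hf, hya])).2
  have hHZ : ∀ k, HZero univ (pW G Pr.gens Pr.rels p ⁻¹' y.Y) k := by
    refine hRV G E (EW G E Pr.gens Pr.rels) f hfg ⟨h, hfh, hhf⟩ Pr _ _ _ _ _ _ _ hQ hQE ?_ ?_ ?_
    · intro v
      rw [phi0, phi0, LinearMap.toSpanSingleton_apply, LinearMap.toSpanSingleton_apply,
        SC.un_smul, SC.un_smul, SC.un_mk, SC.un_mk, Finsupp.sum, Finsupp.sum, map_sum]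
      refine Finset.sum_congr rfl fun g _ => ?_
      rw [map_smul, ksx, ksx, push_single, push_single, push_single]
      congr 2
      ext z
      simp only [ContinuousMap.comp_apply, ContinuousMap.const_apply]
      change g • e = f (g • y.e)
      rw [hfg, hf, hye]
    · intro v
      rw [phi1, phi1, push_lmap f hfg]
      congr 3
      funext i
      rw [SC.un_mk, psx, psx, push_single]
      congr 2
      ext z
      simp only [ContinuousMap.comp_apply]
      change α i _ = f (y.a i _)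
      rw [hf, hya]
    · intro v
      rw [push_lmap f hfg]
      rfl
  have hL := hRH (EW G E Pr.gens Pr.rels) (pW G Pr.gens Pr.rels p ⁻¹' y.Y) hHZ
  have hL2 : ∀ n, Lft y.Y n := fun n => hCV _ _ n (hDN G _ _ (pW G Pr.gens Pr.rels p) hpW y.Y n (hL n))
  obtain ⟨hbY, -⟩ := hbuilt
  refine ⟨E, inferInstance, inferInstance, inferInstance, p, y, hpW, hy, ?_⟩
  exact hWh X (X × WW Pr.gens Pr.rels) y.Y hB hbY hL2 ⟨hX⟩

/-- ROW CLS -/
theorem cls : SpecHom → SpecCls := by
  intro hHom G _ e0 Q hG X _ _ _ _ _ x Y _ _ _ _ _ y hX hY hDX hDY hXY he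
  obtain ⟨E, _, _, _, p, c, hp, hc, ⟨u⟩⟩ := toPres G e0 Q hG X x hX hDX he (Q (cellChi X)) rfl
  obtain ⟨E', _, _, _, p', c', hp', hc', ⟨v⟩⟩ := toPres G e0 Q hG Y y hY hDY (hXY ▸ he)
    (Q (cellChi X)) (by rw [hXY])
  obtain ⟨h⟩ := hHom G _ _ _ _ _ _ hp hp' _ c c' hc hc'
  exact ⟨(u.trans h.toHomotopyEquiv).trans v.symm⟩

end Vale.Agent.P246.H201.CLS
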