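import Vale.Agent.P246.R2.H429.Defs5

/-! # P246, ROW HOM: two presentation complexes of one presentation are homeomorphic -/

set_option linter.all false

namespace Vale.Agent.P246.H201.HOM

open Vale.Agent.P246 Vale.Agent.P246.T Vale.Agent.P246.H429 Topology Metric Set

section

variable {G : Type} [Group G] {Pr : FinPresentation G}

/-- the disjoint union of the cells -/
abbrev KK (Pr : FinPresentation G) : Type :=
  Unit ⊕ ((Σ _ : Fin Pr.gens, Dk 1) ⊕ (Σ _ : Fin Pr.rels, Dk 2))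

/-- the point is interior to its cell -/
def Nrm : KK Pr → Prop
  | .inl _ => True
  | .inr (.inl q) => ‖(q.2 : Fin 1 → ℝ)‖ < 1
  | .inr (.inr q) => ‖(q.2 : Fin 2 → ℝ)‖ < 1

variable {X E : Type} [TopologicalSpace X]
    [TopologicalSpace E] [MulAction G E] [ContinuousConstSMul G E] {p : C(E, X)}

/-- the map of the cells -/
noncomputable def kap (c : PresCx Pr p) : KK Pr → X
  | .inl _ => p c.e
  | .inr (.inl q) => p (c.edge q.1 q.2)
  | .inr (.inr q) => p (c.b q.1 q.2)

theorem e_mem (c : PresCx Pr p) (k : ℕ) : p c.e ∈ c.Y1 k := Or.inl rfl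

theorem edge_mem (c : PresCx Pr p) {i : Fin Pr.gens} {k : ℕ} (h : (i : ℕ) < k) (z : Dk 1) :
    p (c.edge i z) ∈ c.Y1 k :=
  Or.inr (mem_iUnion₂.2 ⟨i, h, ⟨z, rfl⟩⟩)

theorem Y1_sub (c : PresCx Pr p) (k : ℕ) : c.Y1 Pr.gens ⊆ c.Y2 k := fun _ h => Or.inl h

theorem face_mem (c : PresCx Pr p) {j : Fin Pr.rels} {k : ℕ} (h : (j : ℕ) < k) (z : Dk 2) :
    p (c.b j z) ∈ c.Y2 k :=
  Or.inr (mem_iUnion₂.2 ⟨j, h, ⟨z, rfl⟩⟩)

theorem kap_mem (c : PresCx Pr p) (u : KK Pr) : kap c u ∈ c.Y := by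
  rcases u with u | ⟨i, z⟩ | ⟨j, z⟩
  · exact Y1_sub c _ (e_mem c _)
  · exact Y1_sub c _ (edge_mem c i.2 z)
  · exact face_mem c j.2 z

theorem kap_surj (c : PresCx Pr p) {y : X} (hy : y ∈ c.Y) : ∃ u, kap c u = y := by
  rcases hy with (hy | hy) | hy
  · exact ⟨.inl (), hy.symm⟩
  · obtain ⟨i, _, z, hz⟩ := mem_iUnion₂.1 hy
    exact ⟨.inr (.inl ⟨i, z⟩), hz⟩
  · obtain ⟨j, _, z, hz⟩ := mem_iUnion₂.1 hy
    exact ⟨.inr (.inr ⟨j, z⟩), hz⟩

theorem continuous_kap (c : PresCx Pr p) : Continuous (kap c) := by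
  have h1 : Continuous fun q : (Σ _ : Fin Pr.gens, Dk 1) => p (c.edge q.1 q.2) :=
    continuous_sigma fun i => (p.comp (c.edge i)).continuous
  have h2 : Continuous fun q : (Σ _ : Fin Pr.rels, Dk 2) => p (c.b q.1 q.2) :=
    continuous_sigma fun j => (p.comp (c.b j)).continuous
  have h0 : Continuous fun _ : Unit => p c.e := continuous_const
  have h3 := h0.sumElim (h1.sumElim h2)
  refine h3.congr fun u => ?_
  rcases u with u | ⟨i, z⟩ | ⟨j, z⟩ <;> rfl

theorem contra {S : Set X} {a b : X} (ha : a ∈ S) (hb : b ∉ S) (h : a = b) : False :=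
  hb (h ▸ ha)

/-- interior points are separated -/
theorem kap_inj (c : PresCx Pr p) (hc : c.Good) {u v : KK Pr} (hu : Nrm u) (hv : Nrm v)
    (h : kap c u = kap c v) : u = v := by
  rcases u with u | ⟨i, z⟩ | ⟨j, z⟩ <;> rcases v with v | ⟨i', z'⟩ | ⟨j', z'⟩
  · rfl
  · exact (contra (e_mem c _) ((hc.att1 i').int z' hv) h).elim
  · exact (contra (Y1_sub c _ (e_mem c _)) ((hc.att2 j').int z' hv) h).elim
  · exact (contra (e_mem c _) ((hc.att1 i).int z hu) h.symm).elim
  · rcases lt_trichotomy (i : ℕ) (i' : ℕ) with hi | hi | hi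
    · exact (contra (edge_mem c hi z) ((hc.att1 i').int z' hv) h).elim
    · obtain rfl : i = i' := Fin.ext hi
      have : z = z' := (hc.att1 i).inj z z' hu hv h
      rw [this]
    · exact (contra (edge_mem c hi z') ((hc.att1 i).int z hu) h.symm).elim
  · exact (contra (Y1_sub c _ (edge_mem c i.2 z)) ((hc.att2 j').int z' hv) h).elim
  · exact (contra (Y1_sub c _ (e_mem c _)) ((hc.att2 j).int z hu) h.symm).elim
  · exact (contra (Y1_sub c _ (edge_mem c i'.2 z')) ((hc.att2 j).int z hu) h.symm).elim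
  · rcases lt_trichotomy (j : ℕ) (j' : ℕ) with hi | hi | hi
    · exact (contra (face_mem c hi z) ((hc.att2 j').int z' hv) h).elim
    · obtain rfl : j = j' := Fin.ext hi
      have : z = z' := (hc.att2 j).inj z z' hu hv h
      rw [this]
    · exact (contra (face_mem c hi z') ((hc.att2 j).int z hu) h.symm).elim

end

/-! ## Two complexes -/

section Two

variable {G : Type} [Group G] {Pr : FinPresentation G} {X E X' E' : Type} [TopologicalSpace X]
    [TopologicalSpace E] [MulAction G E] [ContinuousConstSMul G E] {p : C(E, X)}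
    [TopologicalSpace X'] [TopologicalSpace E'] [MulAction G E'] [ContinuousConstSMul G E']
    {p' : C(E', X')}

/-- the points `y` and `y'` have the same interior point above them -/
def Same (c : PresCx Pr p) (c' : PresCx Pr p') (y : X) (y' : X') : Prop :=
  ∃ k : KK Pr, Nrm k ∧ kap c k = y ∧ kap c' k = y'

theorem same_e (c : PresCx Pr p) (c' : PresCx Pr p') : Same c c' (p c.e) (p' c'.e) :=
  ⟨.inl (), trivial, rfl, rfl⟩

theorem same_a (hp : IsQuotientCoveringMap p G) (hp' : IsQuotientCoveringMap p' G)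
    (c : PresCx Pr p) (c' : PresCx Pr p') (i : Fin Pr.gens) (s : I) :
    Same c c' (p (c.a i s)) (p' (c'.a i s)) := by
  by_cases h0 : s = 0
  · subst h0
    rw [Path.source, Path.source]
    exact same_e c c'
  by_cases h1 : s = 1
  · subst h1
    rw [Path.target, Path.target, hp.map_smul, hp'.map_smul]
    exact same_e c c'
  have hs0 : (0 : ℝ) < s := lt_of_le_of_ne s.2.1 fun h => h0 (Subtype.ext h.symm)
  have hs1 : (s : ℝ) < 1 := lt_of_le_of_ne s.2.2 fun h => h1 (Subtype.ext h)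
  have hn : ‖(fun _ => 2 * (s : ℝ) - 1 : Fin 1 → ℝ)‖ < 1 := by
    rw [pi_norm_const, Real.norm_eq_abs, abs_lt]
    constructor <;> linarith
  have hpar : par (2 * (s : ℝ) - 1) = s := by
    have e : (2 * (s : ℝ) - 1 + 1) / 2 = s := by ring
    rw [par, e]
    exact projIcc_val zero_le_one s
  refine ⟨.inr (.inl ⟨i, ⟨fun _ => 2 * (s : ℝ) - 1, mem_closedBall_zero_iff.2 hn.le⟩⟩), hn, ?_, ?_⟩
  · change p (c.a i (par (2 * (s : ℝ) - 1))) = _
    rw [hpar]
  · change p' (c'.a i (par (2 * (s : ℝ) - 1))) = _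
    rw [hpar]

theorem same_w (hp : IsQuotientCoveringMap p G) (hp' : IsQuotientCoveringMap p' G)
    (c : PresCx Pr p) (c' : PresCx Pr p') (w : List (Fin Pr.gens × Bool)) : ∀ t : I,
    Same c c' (p (wpath Pr.x c.a w t)) (p' (wpath Pr.x c'.a w t)) := by
  induction w with
  | nil =>
    intro t
    exact same_e c c'
  | cons l w ih =>
    intro t
    rw [wpath, wpath, Path.cast_coe, Path.cast_coe, Path.trans_apply, Path.trans_apply]
    split_ifs with ht
    · rcases l with ⟨i, _ | _⟩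
      · rw [lpath, lpath, Path.cast_coe, Path.cast_coe]
        change Same c c' (p ((Pr.x i)⁻¹ • c.a i _)) (p' ((Pr.x i)⁻¹ • c'.a i _))
        rw [hp.map_smul, hp'.map_smul]
        exact same_a hp hp' c c' i _
      · rw [lpath, lpath, Path.cast_coe, Path.cast_coe]
        exact same_a hp hp' c c' i _
    · change Same c c' (p (lval Pr.x l • wpath Pr.x c.a w _))
        (p' (lval Pr.x l • wpath Pr.x c'.a w _))
      rw [hp.map_smul, hp'.map_smul]
      exact ih _

theorem same (hp : IsQuotientCoveringMap p G) (hp' : IsQuotientCoveringMap p' G)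
    (c : PresCx Pr p) (c' : PresCx Pr p') (u : KK Pr) : Same c c' (kap c u) (kap c' u) := by
  rcases u with u | ⟨i, z⟩ | ⟨j, z⟩
  · exact same_e c c'
  · exact same_a hp hp' c c' i _
  · rcases (mem_closedBall_zero_iff.1 z.2).lt_or_eq with hz | hz
    · exact ⟨.inr (.inr ⟨j, z⟩), hz, rfl, rfl⟩
    · change Same c c' (p (c.b j z)) (p' (c'.b j z))
      by_cases h1 : (z : Fin 2 → ℝ) 0 = 1
      · rw [(c.bdry j z hz).1 h1, (c'.bdry j z hz).1 h1]
        exact same_w hp hp' c c' _ _
      · rw [(c.bdry j z hz).2 h1, (c'.bdry j z hz).2 h1]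
        exact same_e c c'

theorem ker_le (hp : IsQuotientCoveringMap p G) (hp' : IsQuotientCoveringMap p' G)
    (c : PresCx Pr p) (c' : PresCx Pr p') (hc : c.Good) {u v : KK Pr}
    (h : kap c u = kap c v) : kap c' u = kap c' v := by
  obtain ⟨k, hk, h1, h2⟩ := same hp hp' c c' u
  obtain ⟨k', hk', h3, h4⟩ := same hp hp' c c' v
  have e : k = k' := kap_inj c hc hk hk' (by rw [h1, h3, h])
  rw [← h2, ← h4, e]

/-- the map of the cells onto the complex -/
noncomputable def kapY (c : PresCx Pr p) : C(KK Pr, c.Y) :=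
  ⟨fun u => ⟨kap c u, kap_mem c u⟩, (continuous_kap c).subtype_mk _⟩

theorem quot_kapY [T2Space X] (c : PresCx Pr p) : IsQuotientMap (kapY c) := by
  have hc : IsClosedMap (kapY c) := (kapY c).continuous.isClosedMap
  refine hc.isQuotientMap (kapY c).continuous ?_
  rintro ⟨y, hy⟩
  obtain ⟨u, hu⟩ := kap_surj c hy
  exact ⟨u, Subtype.ext hu⟩

end Two

/-- ROW HOM -/
theorem hom : SpecHom := by
  intro G X E X' E' _ _ _ _ _ _ p _ _ _ _ _ p' hp hp' Pr c c' hc hc'
  have h1 : ∀ u v, kapY c u = kapY c v → kapY c' u = kapY c' v := fun u v h =>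
    Subtype.ext (ker_le hp hp' c c' hc (congrArg Subtype.val h))
  have h2 : ∀ u v, kapY c' u = kapY c' v → kapY c u = kapY c v := fun u v h =>
    Subtype.ext (ker_le hp' hp c' c hc' (congrArg Subtype.val h))
  let f : C(c.Y, c'.Y) := (quot_kapY c).lift (kapY c') h1
  let g : C(c'.Y, c.Y) := (quot_kapY c').lift (kapY c) h2
  have hf : ∀ u, f (kapY c u) = kapY c' u := fun u =>
    congrArg (fun F : C(KK Pr, c'.Y) => F u) ((quot_kapY c).lift_comp (kapY c') h1)
  have hg : ∀ u, g (kapY c' u) = kapY c u := fun u =>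
    congrArg (fun F : C(KK Pr, c.Y) => F u) ((quot_kapY c').lift_comp (kapY c) h2)
  refine ⟨{ toFun := f, invFun := g, left_inv := ?_, right_inv := ?_,
            continuous_toFun := f.continuous, continuous_invFun := g.continuous }⟩
  · intro y
    obtain ⟨u, rfl⟩ := (quot_kapY c).surjective y
    rw [hf, hg]
  · intro y
    obtain ⟨u, rfl⟩ := (quot_kapY c').surjective y
    rw [hg, hf]

end Vale.Agent.P246.H201.HOM
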