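import Vale.Agent.P246.R2.H201.CLS
import Vale.Agent.P246.R2.H201.HOM

/-! # P246: the homotopy classification in the stable range, topological form -/

namespace Vale.Agent.P246.H201

open Vale.Agent.P246.H429

/-- ROWS HOM and CLS together -/
theorem cls : SpecCls := CLS.cls HOM.hom

end Vale.Agent.P246.H201
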