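import Vale.Agent.P246.T.Top
import Vale.Agent.P246.R2.H201.TopChi

/-! # P246: the topological form, with the Euler characteristic, all blocks together -/

namespace Vale.Agent.P246.H201

open Vale.Agent.P246 Vale.Agent.P246.T Vale.Agent.P246.H429

/-- ROW T -/
theorem topChi : SpecTopChi :=
  asm AC.main MS.main CL.main fund CWB.main A1f.free A1h.aug_iff A1h.h_one
    A2.main WC.main (YD.main fund) YC.main CY.main YP.main (YH.main MS.main CL.main fund) EWb.main
    RV.main relHur DN.main CV.main WH.main

end Vale.Agent.P246.H201
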