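import Vale.Agent.P246.R2.H429.Defs4
import Vale.Agent.P246.T.Fin

/-! # P246, ROW TW4: the chains of the covering of the wedge -/

set_option linter.all false

namespace Vale.Agent.P246.H201.TW4

open Vale.Agent.P246 Vale.Agent.P246.T Vale.Agent.P246.H429 Topology Metric Set

/-! ## The two-cell is a cycle -/

theorem push_const {M N : Type} [TopologicalSpace M] [TopologicalSpace N] (f : C(M, N))
    {A : Set M} {e : N} (hf : ∀ x ∈ A, f x = e) {n : ℕ} {c : Ch n M} (hc : c ∈ Con A n)
    (h0 : (c.sum fun _ a => a) = 0) : push f n c = 0 := by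
  have h1 : push f n c = c.sum fun σ a => Finsupp.single (f.comp σ) a := rfl
  have h2 : (c.sum fun σ a => Finsupp.single (f.comp σ) a) =
      c.sum fun _ a => Finsupp.single (ContinuousMap.const (Dl (n + 1)) e) a := by
    refine Finset.sum_congr rfl fun σ hσ => ?_
    have h3 := (Finsupp.mem_supported ℤ c).1 hc hσ
    have h4 : f.comp σ = ContinuousMap.const (Dl (n + 1)) e := by
      ext x
      exact hf _ (h3 x)
    simp only [h4]
  rw [h1, h2, ← Finsupp.single_sum, h0, Finsupp.single_zero]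

/-- the sum of the coefficients -/
noncomputable def tot {M : Type} [TopologicalSpace M] (n : ℕ) : Ch n M →ₗ[ℤ] ℤ :=
  Finsupp.linearCombination ℤ fun _ => 1

theorem tot_eq {M : Type} [TopologicalSpace M] (n : ℕ) (c : Ch n M) :
    tot n c = c.sum fun _ a => a := by
  rw [tot, Finsupp.linearCombination_apply]
  simp

theorem tot_bd_single {M : Type} [TopologicalSpace M] (σ : C(Dl 3, M)) (a : ℤ) :
    tot 1 (bd 1 (Finsupp.single σ a)) = a := by
  rw [bd_single, map_sum]
  simp only [tot, Finsupp.linearCombination_single, smul_eq_mul, mul_one]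
  simp [Fin.sum_univ_three]

theorem tot_zeta : ((bd 1 zeta2).sum fun _ a => a) = 0 := by
  rw [← tot_eq, zeta2, map_sub, map_sub, tot_bd_single, tot_bd_single, sub_self]

theorem preconnected_bdk : IsPreconnected (bdk 2) := by
  have h1 : IsPreconnected (sphere (0 : Fin 2 → ℝ) 1) := by
    refine isPreconnected_sphere ?_ 0 1
    rw [← Module.finrank_eq_rank, Module.finrank_fin_fun]
    norm_num
  have h2 : (Subtype.val : Dk 2 → (Fin 2 → ℝ)) '' bdk 2 = sphere (0 : Fin 2 → ℝ) 1 := by
    ext x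
    constructor
    · rintro ⟨y, hy, rfl⟩
      exact mem_sphere_zero_iff_norm.2 hy
    · intro hx
      exact ⟨⟨x, sphere_subset_closedBall hx⟩, mem_sphere_zero_iff_norm.1 hx, rfl⟩
  rw [← h2] at h1
  exact IsInducing.subtypeVal.isPreconnected_image.1 h1

theorem bd_push {G W F : Type} [Group G] [TopologicalSpace W] [TopologicalSpace F]
    [MulAction G F] {q : C(F, W)} (hq : IsQuotientCoveringMap q G) {Φ : C(Dk 2, W)}
    {Ψ : C(Dk 2, F)} (hΨ : ∀ x, q (Ψ x) = Φ x) {a : W}
    (ha : ∀ z : Dk 2, ‖(z : Fin 2 → ℝ)‖ = 1 → Φ z = a) (hcyc : RCyc (bdk 2) 2 zeta2) :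
    bd 1 (push Ψ 2 zeta2) = 0 := by
  rw [push_bd]
  let b : Dk 2 := ⟨fun _ => 1, mem_closedBall_zero_iff.2 (by simp [pi_norm_const])⟩
  have hb : b ∈ bdk 2 := by
    change ‖(fun _ => 1 : Fin 2 → ℝ)‖ = 1
    simp [pi_norm_const]
  refine push_const Ψ (A := bdk 2) (e := Ψ b) (fun x hx => ?_) hcyc tot_zeta
  refine hq.isCoveringMap.constOn_of_comp preconnected_bdk Ψ.continuous.continuousOn ?_ hx hb
  intro y hy y' hy'
  change q (Ψ y) = q (Ψ y')
  rw [hΨ, hΨ, ha y hy, ha y' hy']

/-! ## Algebra -/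

section Alg

variable {R M : Type} [Ring R] [AddCommGroup M] [Module R M]

/-- one more generator -/
theorem rank_sup {P A : Submodule R M} (hPA : P ≤ A) {z : M} (hz : ∀ r : R, r • z ∈ A → r = 0)
    {k : ℕ} (hk : Nonempty (P ≃ₗ[R] (Fin k → R))) :
    Nonempty ((P ⊔ Submodule.span R {z} : Submodule R M) ≃ₗ[R] (Fin (k + 1) → R)) := by
  obtain ⟨φ⟩ := hk
  let f : (P × R) →ₗ[R] M := P.subtype.coprod (LinearMap.toSpanSingleton R M z)
  have hf : Function.Injective f := by
    rw [injective_iff_map_eq_zero]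
    rintro ⟨x, r⟩ h
    have h1 : (x : M) + r • z = 0 := h
    have hr : r = 0 := hz r (by
      rw [eq_neg_of_add_eq_zero_right h1]
      exact Submodule.neg_mem _ (hPA x.2))
    subst hr
    rw [zero_smul, add_zero] at h1
    exact Prod.ext (Subtype.ext h1) rfl
  have hrange : LinearMap.range f = P ⊔ Submodule.span R {z} := by
    rw [LinearMap.range_coprod, Submodule.range_subtype, LinearMap.range_toSpanSingleton]
  have e := (LinearEquiv.ofInjective f hf).trans (LinearEquiv.ofEq _ _ hrange)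
  exact ⟨e.symm.trans (((LinearEquiv.prodComm R P R).trans
    ((LinearEquiv.refl R R).prodCongr φ)).trans
    (Fin.consLinearEquiv R (fun _ : Fin (k + 1) => R)))⟩

theorem disjoint_sup {P Z A : Submodule R M} (hA : P ⊔ Z ≤ A) {z : M}
    (hz : ∀ r : R, r • z ∈ A → r = 0) (h : Disjoint P Z) :
    Disjoint P (Z ⊔ Submodule.span R {z}) := by
  rw [Submodule.disjoint_def] at h ⊢
  intro x hx hx'
  obtain ⟨y, hy, w, hw, rfl⟩ := Submodule.mem_sup.1 hx'
  obtain ⟨r, rfl⟩ := Submodule.mem_span_singleton.1 hw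
  have hr : r = 0 := hz r (by
    have e : r • z = (y + r • z) - y := by abel
    rw [e]
    exact A.sub_mem (hA (Submodule.mem_sup_left hx)) (hA (Submodule.mem_sup_right hy)))
  subst hr
  rw [zero_smul, add_zero] at hx ⊢
  exact h y hx hy

end Alg

/-! ## The induction -/

section

variable {G W F : Type} [Group G] [TopologicalSpace W] [T2Space W]
  [TopologicalSpace F] [MulAction G F] [ContinuousConstSMul G F] {q : C(F, W)}

/-- the statement of the induction -/
def Good (hq : IsQuotientCoveringMap q G) (P : ∀ n, Submodule (ZG G) (SC G n F)) (B : Set W)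
    (t : ℕ) : Prop :=
  ∃ Z : Submodule (ZG G) (SC G 2 F), Nonempty (Z ≃ₗ[ZG G] (Fin t → ZG G)) ∧
    (∀ z ∈ Z, SC.d G 1 F z = 0) ∧ Disjoint (P 2) Z ∧
    IsFinModel (fun n => SC G n F) (fun n => SC.d G n F) (Step.SA hq B)
      (Function.update P 2 (P 2 ⊔ Z))

theorem good_base (hq : IsQuotientCoveringMap q G) {C : Set W}
    {P : ∀ n, Submodule (ZG G) (SC G n F)}
    (hP : IsFinModel (fun n => SC G n F) (fun n => SC.d G n F) (Step.SA hq C) P) :
    Good hq P C 0 := by
  refine ⟨⊥, ⟨LinearEquiv.ofBijective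
      (0 : (⊥ : Submodule (ZG G) (SC G 2 F)) →ₗ[ZG G] (Fin 0 → ZG G))
      ⟨fun a b _ => Subsingleton.elim a b, fun b => ⟨0, Subsingleton.elim _ b⟩⟩⟩, ?_,
      disjoint_bot_right, ?_⟩
  · intro z hz
    rw [Submodule.mem_bot] at hz
    rw [hz, map_zero]
  · rw [sup_bot_eq, Function.update_eq_self]
    exact hP

theorem good_cell (hq : IsQuotientCoveringMap q G) {P : ∀ n, Submodule (ZG G) (SC G n F)}
    {A B : Set W} {t : ℕ} (hA : IsClosed A) {Φ : C(Dk 2, W)} {a : W}
    (ha : ∀ z : Dk 2, ‖(z : Fin 2 → ℝ)‖ = 1 → Φ z = a) (h : Attach 2 A B Φ)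
    (hG : Good hq P A t) : Good hq P B (t + 1) := by
  obtain ⟨Z, hZ, hcyc, hdis, hP⟩ := hG
  obtain ⟨Ψ, hΨ⟩ := MX.exists_lift hq Φ
  have hζ : IsFund 2 zeta2 := fund.2.2.2
  obtain ⟨z, hz⟩ : ∃ z : SC G 2 F, z = SC.mk G (push Ψ 2 zeta2) := ⟨_, rfl⟩
  have hz0 : SC.d G 1 F z = 0 := by
    apply SC.un_inj
    rw [SC.un_d, hz, SC.un_mk]
    exact bd_push hq hΨ ha hζ.cyc
  obtain ⟨h1, h2⟩ := Step.step MS.main CC.main2 CL.main hq Ψ hA h hΨ hζ hP.toIsModel z
    (by rw [hz, SC.un_mk, sub_self]; exact Submodule.zero_mem _)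
    (by
      change SC.d G 1 F z ∈ Function.update P 2 (P 2 ⊔ Z) 1
      rw [hz0]
      exact Submodule.zero_mem _)
  have hle : P 2 ⊔ Z ≤ Step.SA hq A 2 := by
    have := hP.le 2
    rwa [Function.update_self] at this
  have hup : Function.update (Function.update P 2 (P 2 ⊔ Z)) 2
      (Function.update P 2 (P 2 ⊔ Z) 2 ⊔ Submodule.span (ZG G) {z}) =
      Function.update P 2 (P 2 ⊔ (Z ⊔ Submodule.span (ZG G) {z})) := by
    rw [Function.update_idem, Function.update_self, sup_assoc]
  refine ⟨Z ⊔ Submodule.span (ZG G) {z}, rank_sup (le_sup_right.trans hle) h2 hZ, ?_,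
    disjoint_sup hle h2 hdis, ?_⟩
  · intro x hx
    obtain ⟨y, hy, w, hw, rfl⟩ := Submodule.mem_sup.1 hx
    obtain ⟨r, rfl⟩ := Submodule.mem_span_singleton.1 hw
    rw [map_add, hcyc y hy, map_smul, hz0, smul_zero, add_zero]
  · rw [hup] at h1
    refine { toIsModel := h1, free := fun k => ?_, fin := fun k => ?_, bdd := ?_ }
    · by_cases hk : k = 2
      · subst hk
        have h3 := MX.free_sup hle h2 (by
          have := hP.free 2
          rwa [Function.update_self] at this)
        rw [Function.update_self, ← sup_assoc]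
        exact h3
      · have h3 := hP.free k
        rw [Function.update_of_ne hk] at h3 ⊢
        exact h3
    · by_cases hk : k = 2
      · subst hk
        have h3 := MX.finite_sup z (by
          have := hP.fin 2
          rwa [Function.update_self] at this)
        rw [Function.update_self, ← sup_assoc]
        exact h3
      · have h3 := hP.fin k
        rw [Function.update_of_ne hk] at h3 ⊢
        exact h3
    · obtain ⟨N, hN⟩ := hP.bdd
      refine ⟨max N 2, fun k hk => ?_⟩
      have h3 := hN k (lt_of_le_of_lt (le_max_left N 2) hk)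
      have hk2 : k ≠ 2 := by have := le_max_right N 2; omega
      rw [Function.update_of_ne hk2] at h3 ⊢
      exact h3

theorem good (hq : IsQuotientCoveringMap q G) {C B : Set W} {t : ℕ} (hC : IsClosed C)
    (hB : Sph C B t) {P : ∀ n, Submodule (ZG G) (SC G n F)}
    (hP : IsFinModel (fun n => SC G n F) (fun n => SC.d G n F) (Step.SA hq C) P) :
    IsClosed B ∧ Good hq P B t := by
  induction hB with
  | base => exact ⟨hC, good_base hq hP⟩
  | cell Φ a _ _ ha h ih =>
    obtain ⟨hA, hG⟩ := ih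
    refine ⟨?_, good_cell hq hA ha h hG⟩
    rw [h.eq]
    exact hA.union (isCompact_range Φ.continuous).isClosed

end

/-- ROW TW4 -/
theorem chW : SpecChW := by
  intro G W F _ _ _ _ _ _ q hq C t hC hS P hP
  obtain ⟨-, Z, hZ, hcyc, hdis, hM⟩ := good hq hC hS hP
  refine ⟨Z, hZ, hcyc, hdis, ?_⟩
  have e : (Step.SA hq univ : ∀ n, Submodule (ZG G) (SC G n F)) = fun _ => ⊤ := by
    funext n
    rw [eq_top_iff]
    intro x _
    rw [Step.mem_SA, preimage_univ]
    exact PR.Con_univ _
  rw [← e]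
  exact hM

end Vale.Agent.P246.H201.TW4
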